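import Mathlib

/-! # P246: Bass' stable range theorem for algebras finite over a central noetherian ring of
finite dimension (ROW B, Mathlib only part) -/

namespace Vale.Agent.P246.H411.B

open Submodule

section

variable {A M : Type} [CommRing A] [AddCommGroup M] [Module A M]

/-- `M / J` is generated by `k` elements near `p` -/
def GG (J : Submodule A M) (p : Ideal A) (k : ℕ) : Prop :=
  ∃ f : A, f ∉ p ∧ ∃ s : Finset M, s.card ≤ k ∧ ∀ x : M, f • x ∈ J ⊔ span A (s : Set M)

/-- `a` vanishes in `M / J` at `p` -/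
def ZZ (J : Submodule A M) (a : M) (p : Ideal A) : Prop :=
  ∃ f : A, f ∉ p ∧ f • a ∈ J ⊔ p • (⊤ : Submodule A M)

theorem GG_mono {J : Submodule A M} {p : Ideal A} {k l : ℕ} (h : GG J p k) (hkl : k ≤ l) :
    GG J p l := by
  obtain ⟨f, hf, s, hs, h⟩ := h
  exact ⟨f, hf, s, hs.trans hkl, h⟩

theorem GG_anti {J : Submodule A M} {p q : Ideal A} {k : ℕ} (h : GG J p k) (hq : q ≤ p) :
    GG J q k := by
  obtain ⟨f, hf, s, hs, h⟩ := h
  exact ⟨f, fun h' => hf (hq h'), s, hs, h⟩

theorem GG_le {J K : Submodule A M} {p : Ideal A} {k : ℕ} (h : GG J p k) (hJ : J ≤ K) :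
    GG K p k := by
  obtain ⟨f, hf, s, hs, h⟩ := h
  exact ⟨f, hf, s, hs, fun x => sup_le_sup_right hJ _ (h x)⟩

theorem ZZ_le {J K : Submodule A M} {p : Ideal A} {a : M} (h : ZZ J a p) (hJ : J ≤ K) :
    ZZ K a p := by
  obtain ⟨f, hf, h⟩ := h
  exact ⟨f, hf, sup_le_sup_right hJ _ h⟩

theorem GG_zero {J : Submodule A M} {p : Ideal A} {a : M} (h : GG J p 0) : ZZ J a p := by
  obtain ⟨f, hf, s, hs, h⟩ := h
  have hs' : s = ∅ := Finset.card_eq_zero.1 (Nat.le_zero.1 hs)
  subst hs'
  refine ⟨f, hf, ?_⟩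
  have := h a
  simp only [Finset.coe_empty, span_empty, sup_bot_eq] at this
  exact mem_sup_left this

theorem L1 {J : Submodule A M} {p : Ideal A} (hp : p.IsPrime) {y : M} {k : ℕ}
    (hz : ¬ ZZ J y p) (hg : GG J p (k + 1)) : GG (J ⊔ span A {y}) p k := by
  classical
  obtain ⟨f, hf, s, hs, h⟩ := hg
  obtain ⟨j, hj, w, hw, e⟩ := Submodule.mem_sup.1 (h y)
  obtain ⟨c, hc, hw⟩ := Submodule.mem_span_finset.1 hw
  by_cases hall : ∀ x ∈ s, c x ∈ p
  · exfalso
    apply hz
    refine ⟨f, hf, ?_⟩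
    rw [← e]
    refine add_mem (mem_sup_left hj) (mem_sup_right ?_)
    rw [← hw]
    exact sum_mem fun x hx => smul_mem_smul (hall x hx) trivial
  · push Not at hall
    obtain ⟨m0, hm0, hcm⟩ := hall
    refine ⟨c m0 * f, fun h' => ?_, s.erase m0, ?_, fun x => ?_⟩
    · rcases hp.mem_or_mem h' with h' | h'
      · exact hcm h'
      · exact hf h'
    · rw [Finset.card_erase_of_mem hm0]; omega
    · have hm : c m0 • m0 ∈ (J ⊔ span A {y}) ⊔ span A ((s.erase m0 : Finset M) : Set M) := by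
        have h1 : c m0 • m0 = f • y - j - ∑ a ∈ s.erase m0, c a • a := by
          rw [← e, ← hw, ← Finset.add_sum_erase s _ hm0]; abel
        rw [h1]
        refine sub_mem (sub_mem ?_ ?_) ?_
        · exact mem_sup_left (mem_sup_right (smul_mem _ _ (mem_span_singleton_self y)))
        · exact mem_sup_left (mem_sup_left hj)
        · exact mem_sup_right (sum_mem fun a ha => smul_mem _ _ (subset_span ha))
      have hle : J ⊔ span A (s : Set M) ≤
          ((J ⊔ span A {y}) ⊔ span A ((s.erase m0 : Finset M) : Set M)).comap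
            (c m0 • (LinearMap.id : M →ₗ[A] M)) := by
        refine sup_le (fun z hz => ?_) (span_le.2 fun z hz => ?_)
        · exact smul_mem _ (c m0) (mem_sup_left (mem_sup_left hz))
        · show c m0 • z ∈ ((J ⊔ span A {y}) ⊔ span A ((s.erase m0 : Finset M) : Set M))
          by_cases hzm : z = m0
          · rw [hzm]; exact hm
          · exact smul_mem _ _ (mem_sup_right (subset_span
              (Finset.mem_coe.2 (Finset.mem_erase.2 ⟨hzm, hz⟩))))
      have := hle (h x)
      rw [mul_smul]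
      exact this

theorem L2 {J : Submodule A M} {q : Ideal A} (hq : q.IsPrime) {a : M} {k : ℕ}
    (hz : ZZ J a q) (hg : GG (J ⊔ span A {a}) q k) : GG J q k := by
  obtain ⟨f, hf, hfa⟩ := hz
  obtain ⟨g, hg, s, hs, h⟩ := hg
  have hx : ∀ x : M, g • x ∈ (J ⊔ span A (s : Set M)) ⊔ span A {a} := by
    intro x
    have := h x
    rwa [sup_assoc, sup_comm (span A {a}), ← sup_assoc] at this
  have h1 : J ⊔ q • (⊤ : Submodule A M) ≤
      ((J ⊔ span A (s : Set M)) ⊔ q • span A {a}).comap (g • (LinearMap.id : M →ₗ[A] M)) := by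
    refine sup_le (fun z hz => ?_) (smul_le.2 fun r hr x _ => ?_)
    · exact smul_mem _ g (mem_sup_left (mem_sup_left hz))
    · show g • (r • x) ∈ ((J ⊔ span A (s : Set M)) ⊔ q • span A {a})
      rw [smul_comm]
      have h2 := smul_mem_smul hr (hx x)
      rw [Submodule.smul_sup] at h2
      have h5 : q • (J ⊔ span A (s : Set M)) ≤ J ⊔ span A (s : Set M) := Submodule.smul_le_right
      have h6 := sup_le_sup_right h5 (q • span A {a})
      exact h6 h2
  have h2 : g • (f • a) ∈ (J ⊔ span A (s : Set M)) ⊔ q • span A {a} := h1 hfa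
  obtain ⟨w, hw, v, hv, e⟩ := Submodule.mem_sup.1 h2
  obtain ⟨c, hc, rfl⟩ := Submodule.mem_smul_span_singleton.1 hv
  have h3 : (g * f - c) • a ∈ J ⊔ span A (s : Set M) := by
    rw [sub_smul, mul_smul, ← e]
    simpa using hw
  have hgf : g * f ∉ q := fun h' => (hq.mem_or_mem h').elim hg hf
  refine ⟨(g * f - c) * g, fun h' => ?_, s, hs, fun x => ?_⟩
  · rcases hq.mem_or_mem h' with h' | h'
    · apply hgf
      have := q.add_mem h' hc
      simpa using this
    · exact hg h'
  · have h4 : (J ⊔ span A (s : Set M)) ⊔ span A {a} ≤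
        (J ⊔ span A (s : Set M)).comap ((g * f - c) • (LinearMap.id : M →ₗ[A] M)) := by
      refine sup_le (fun z hz => smul_mem _ (g * f - c) hz) ((span_singleton_le_iff_mem _ _).2 h3)
    rw [mul_smul]
    exact h4 (hx x)

theorem crit_finite [IsNoetherianRing A] (J : Submodule A M) (a : M) (m i : ℕ) (hm : 1 ≤ m)
    (gen : ∃ s : Finset M, s.card ≤ m ∧ span A (s : Set M) = ⊤) (ht : Ideal A → ℕ)
    (hht : ∀ p q : Ideal A, p.IsPrime → q.IsPrime → q < p → ht q < ht p)
    (inv : ∀ p : Ideal A, p.IsPrime → ¬ ZZ J a p → ∃ k, k + i ≤ m * (1 + ht p) ∧ GG J p k) :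
    {p : Ideal A | p.IsPrime ∧ ¬ ZZ J a p ∧
      ¬ ∃ k, k + i < m * (1 + ht p) ∧ GG J p k}.Finite := by
  let I : ℕ → Ideal A := fun k => Ideal.span
    {f : A | ∃ s : Finset M, s.card ≤ k ∧ ∀ x : M, f • x ∈ J ⊔ span A (s : Set M)}
  have hI : ∀ (k : ℕ) (q : Ideal A), I k ≤ q → ¬ GG J q k := by
    rintro k q hle ⟨f, hf, hs⟩
    exact hf (hle (Ideal.subset_span hs))
  have hfin : (⋃ k ∈ Finset.range m, (I k).minimalPrimes).Finite :=
    Set.Finite.biUnion (Finset.finite_toSet _)
      (fun k _ => Ideal.finite_minimalPrimes_of_isNoetherianRing A (I k))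
  refine hfin.subset ?_
  rintro p ⟨hp, hz, hno⟩
  obtain ⟨k, hk, hG⟩ := inv p hp hz
  have hkeq : k + i = m * (1 + ht p) := by
    by_contra hne
    exact hno ⟨k, lt_of_le_of_ne hk hne, hG⟩
  obtain ⟨k', rfl⟩ : ∃ k', k = k' + 1 := by
    rcases k with _ | k'
    · exact absurd (GG_zero hG) hz
    · exact ⟨k', rfl⟩
  have hIp : I k' ≤ p := by
    refine Ideal.span_le.2 ?_
    rintro f ⟨s, hs, hf⟩
    by_contra hfp
    exact hno ⟨k', by omega, f, hfp, s, hs, hf⟩
  have hk'm : k' < m := by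
    by_contra hge
    obtain ⟨s, hs, hs'⟩ := gen
    apply hI k' p hIp
    refine ⟨1, (Ideal.ne_top_iff_one p).1 hp.ne_top, s, by omega, fun x => ?_⟩
    rw [hs']
    exact mem_sup_right trivial
  refine Set.mem_biUnion (Finset.mem_coe.2 (Finset.mem_range.2 hk'm)) ?_
  refine ⟨⟨hp, hIp⟩, ?_⟩
  rintro q ⟨hq, hIq⟩ hqp
  by_contra hpq
  have hlt : q < p := lt_of_le_not_ge hqp hpq
  have h1 := hht p q hp hq hlt
  by_cases hzq : ZZ J a q
  · exact hI k' q hIq (L2 hq hzq (GG_anti (L1 hp hz hG) hqp))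
  · obtain ⟨k2, hk2, hG2⟩ := inv q hq hzq
    refine hI k' q hIq (GG_mono hG2 ?_)
    have h3 : m * (1 + ht q) + m ≤ m * (1 + ht p) := by
      have : m * (1 + ht q) + m = m * (1 + ht q + 1) := by ring
      rw [this]
      exact Nat.mul_le_mul_left _ (by omega)
    omega

theorem avoid (J : Submodule A M) (y a : M) (n : ℕ) : ∀ (S : Finset (Ideal A)), S.card = n →
    (∀ p ∈ S, p.IsPrime ∧ ¬ ZZ J a p) → ∃ t : A, ∀ p ∈ S, ¬ ZZ J (y + t • a) p := by
  classical
  induction n with
  | zero =>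
    intro S hS _
    rw [Finset.card_eq_zero] at hS
    subst hS
    exact ⟨0, by simp⟩
  | succ n ih =>
    intro S hS hp
    have hne : S.Nonempty := Finset.card_pos.1 (by omega)
    obtain ⟨p, hpS, hmin⟩ := S.exists_minimal hne
    obtain ⟨t, ht⟩ := ih (S.erase p) (by rw [Finset.card_erase_of_mem hpS]; omega)
      (fun q hq => hp q (Finset.mem_of_mem_erase hq))
    have hpp := (hp p hpS).1
    by_cases hz : ZZ J (y + t • a) p
    · have hu : ¬ (S.erase p).inf id ≤ p := by
        intro hle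
        obtain ⟨q, hq, hqp⟩ := (Ideal.IsPrime.inf_le' hpp).1 hle
        have h1 : p ≤ q := hmin (Finset.mem_of_mem_erase hq) hqp
        exact Finset.ne_of_mem_erase hq (le_antisymm hqp h1)
      obtain ⟨u, hu, hup⟩ := SetLike.not_le_iff_exists.1 hu
      have huq : ∀ q ∈ S.erase p, u ∈ q := fun q hq => (Finset.inf_le hq : _ ≤ id q) hu
      refine ⟨t + u, fun q hq => ?_⟩
      by_cases hqp : q = p
      · subst hqp
        rintro ⟨g, hg, hga⟩
        obtain ⟨f, hf, hfa⟩ := hz
        apply (hp q hpS).2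
        refine ⟨f * g * u, fun h' => ?_, ?_⟩
        · rcases hpp.mem_or_mem h' with h' | h'
          · rcases hpp.mem_or_mem h' with h' | h'
            · exact hf h'
            · exact hg h'
          · exact hup h'
        · have : (f * g * u) • a = f • (g • (y + (t + u) • a)) - g • (f • (y + t • a)) := by
            simp only [smul_add, add_smul, smul_smul]
            rw [mul_comm g f, show f * (g * t) = f * g * t by ring,
              show f * (g * u) = f * g * u by ring, show g * (f * t) = f * g * t by ring]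
            abel
          rw [this]
          exact sub_mem (smul_mem _ _ hga) (smul_mem _ _ hfa)
      · have hq' : q ∈ S.erase p := Finset.mem_erase.2 ⟨hqp, hq⟩
        rintro ⟨g, hg, hga⟩
        apply ht q hq'
        refine ⟨g, hg, ?_⟩
        have : g • (y + t • a) = g • (y + (t + u) • a) - u • (g • a) := by
          simp only [smul_add, add_smul, smul_smul]
          rw [mul_comm u g]
          abel
        rw [this]
        exact sub_mem hga (mem_sup_right (smul_mem_smul (huq q hq') trivial))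
    · refine ⟨t, fun q hq => ?_⟩
      by_cases hqp : q = p
      · rw [hqp]; exact hz
      · exact ht q (Finset.mem_erase.2 ⟨hqp, hq⟩)

theorem step [IsNoetherianRing A] (J : Submodule A M) (a y : M) (m i : ℕ) (hm : 1 ≤ m)
    (gen : ∃ s : Finset M, s.card ≤ m ∧ span A (s : Set M) = ⊤) (ht : Ideal A → ℕ)
    (hht : ∀ p q : Ideal A, p.IsPrime → q.IsPrime → q < p → ht q < ht p)
    (inv : ∀ p : Ideal A, p.IsPrime → ¬ ZZ J a p → ∃ k, k + i ≤ m * (1 + ht p) ∧ GG J p k) :
    ∃ t : A, ∀ K : Submodule A M, J ≤ K → y + t • a ∈ K →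
      ∀ p : Ideal A, p.IsPrime → ¬ ZZ K a p → ∃ k, k + (i + 1) ≤ m * (1 + ht p) ∧ GG K p k := by
  have hfin := crit_finite J a m i hm gen ht hht inv
  obtain ⟨t, ht'⟩ := avoid J y a _ hfin.toFinset rfl (fun p hp => by
    rw [Set.Finite.mem_toFinset] at hp
    exact ⟨hp.1, hp.2.1⟩)
  refine ⟨t, fun K hJK hyK p hp hz => ?_⟩
  have hzJ : ¬ ZZ J a p := fun h => hz (ZZ_le h hJK)
  by_cases hcr : ∃ k, k + i < m * (1 + ht p) ∧ GG J p k
  · obtain ⟨k, hk, hG⟩ := hcr
    exact ⟨k, by omega, GG_le hG hJK⟩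
  · have hz' := ht' p (by rw [Set.Finite.mem_toFinset]; exact ⟨hp, hzJ, hcr⟩)
    obtain ⟨k, hk, hG⟩ := inv p hp hzJ
    rcases k with _ | k
    · exact absurd (GG_zero hG) hzJ
    · refine ⟨k, by omega, GG_le (L1 hp hz' hG) (sup_le hJK ?_)⟩
      rw [span_singleton_le_iff_mem]; exact hyK

end

section

variable {A R : Type} [CommRing A] [Ring R] [Algebra A R]

/-- right ideals (as modules over the central ring `A`) -/
def RI (J : Submodule A R) : Prop := ∀ x ∈ J, ∀ r : R, x * r ∈ J

theorem top_of_ZZ [Module.Finite A R] (J : Submodule A R) (hJ : RI J) (a : R)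
    (hall : ∀ p : Ideal A, p.IsPrime → ZZ J a p)
    (hcov : ∀ x : R, ∃ j ∈ J, ∃ r : R, x = j + a * r) : J = ⊤ := by
  by_contra hne
  let I : Ideal A := J.colon Set.univ
  have hI : ∀ f : A, f ∈ I ↔ ∀ x : R, f • x ∈ J := by
    intro f
    simp only [I, Submodule.mem_colon]
    exact ⟨fun h x => h x trivial, fun h x _ => h x⟩
  have hI1 : I ≠ ⊤ := by
    intro h
    apply hne
    rw [eq_top_iff]
    intro x _
    have := (hI 1).1 ((Ideal.eq_top_iff_one I).1 h) x
    rwa [one_smul] at this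
  obtain ⟨p, hp, hIp⟩ := Ideal.exists_le_maximal I hI1
  obtain ⟨f, hf, hfa⟩ := hall p hp.isPrime
  -- the multiples of `a`
  have h1 : ∀ r : R, f • (a * r) ∈ J ⊔ p • (⊤ : Submodule A R) := by
    intro r
    have h2 : J ⊔ p • (⊤ : Submodule A R) ≤
        (J ⊔ p • (⊤ : Submodule A R)).comap (LinearMap.mulRight A r) := by
      refine sup_le (fun z hz => mem_sup_left (hJ z hz r)) (smul_le.2 fun c hc x _ => ?_)
      show (c • x) * r ∈ (J ⊔ p • (⊤ : Submodule A R))
      rw [smul_mul_assoc]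
      exact mem_sup_right (smul_mem_smul hc trivial)
    have h3 := h2 hfa
    rwa [Submodule.mem_comap, LinearMap.mulRight_apply, smul_mul_assoc] at h3
  have h2 : ∀ x : R, f • x ∈ J ⊔ p • (⊤ : Submodule A R) := by
    intro x
    obtain ⟨j, hj, r, rfl⟩ := hcov x
    rw [smul_add]
    exact add_mem (mem_sup_left (smul_mem _ _ hj)) (h1 r)
  obtain ⟨e, c, hc, hec⟩ : ∃ e c : A, c ∈ p ∧ e * f + c = 1 := by
    obtain ⟨e, c, hc, h⟩ := hp.exists_inv hf
    exact ⟨e, c, hc, h⟩
  have h3 : (⊤ : Submodule A R) ≤ J ⊔ p • (⊤ : Submodule A R) := by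
    intro x _
    have h4 : x = e • (f • x) + c • x := by
      rw [smul_smul, ← add_smul, hec, one_smul]
    rw [h4]
    exact add_mem (smul_mem _ _ (h2 x)) (mem_sup_right (smul_mem_smul hc trivial))
  obtain ⟨r, hr1, hr2⟩ := Submodule.exists_sub_one_mem_and_smul_le_of_fg_of_le_sup
    (Module.finite_def.1 (inferInstance : Module.Finite A R)) le_rfl h3
  apply hp.ne_top
  rw [Ideal.eq_top_iff_one]
  have h5 : r ∈ p := hIp ((hI r).2 fun x => hr2 (smul_mem_pointwise_smul x r _ trivial))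
  have := p.sub_mem h5 hr1
  simpa using this

/-- the right ideal generated by the first `i` entries -/
def JJ (y : ℕ → R) (i : ℕ) : Submodule A R where
  carrier := {x | ∃ v : ℕ → R, x = ∑ j ∈ Finset.range i, y j * v j}
  add_mem' := by
    rintro x x' ⟨v, rfl⟩ ⟨v', rfl⟩
    exact ⟨v + v', by simp [mul_add, Finset.sum_add_distrib]⟩
  zero_mem' := ⟨0, by simp⟩
  smul_mem' := by
    rintro c x ⟨v, rfl⟩
    exact ⟨c • v, by simp [Finset.smul_sum]⟩

theorem JJ_RI (y : ℕ → R) (i : ℕ) : RI (JJ (A := A) y i) := by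
  rintro x ⟨v, rfl⟩ r
  exact ⟨fun j => v j * r, by simp [Finset.sum_mul, mul_assoc]⟩

theorem JJ_mono (y : ℕ → R) (i : ℕ) : JJ (A := A) y i ≤ JJ y (i + 1) := by
  rintro x ⟨v, rfl⟩
  refine ⟨Function.update v i 0, ?_⟩
  rw [Finset.sum_range_succ]
  simp only [Function.update_self, mul_zero, add_zero]
  refine Finset.sum_congr rfl fun j hj => ?_
  rw [Function.update_of_ne (Finset.mem_range.1 hj).ne]

theorem JJ_mem (y : ℕ → R) (i j : ℕ) (hj : j < i) (r : R) : y j * r ∈ JJ (A := A) y i := by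
  refine ⟨Function.update 0 j r, ?_⟩
  rw [Finset.sum_eq_single j]
  · simp
  · intro b _ hb
    simp [Function.update_of_ne hb]
  · intro h; exact absurd (Finset.mem_range.2 hj) h

theorem JJ_congr (y z : ℕ → R) (i : ℕ) (h : ∀ j < i, y j = z j) :
    JJ (A := A) y i = JJ z i := by
  ext x
  constructor
  · rintro ⟨v, rfl⟩
    exact ⟨v, Finset.sum_congr rfl fun j hj => by rw [h j (Finset.mem_range.1 hj)]⟩
  · rintro ⟨v, rfl⟩
    exact ⟨v, Finset.sum_congr rfl fun j hj => by rw [h j (Finset.mem_range.1 hj)]⟩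

theorem chain [IsNoetherianRing A] (y : ℕ → R) (a : R) (m : ℕ) (hm : 1 ≤ m)
    (gen : ∃ s : Finset R, s.card ≤ m ∧ span A (s : Set R) = ⊤) (ht : Ideal A → ℕ)
    (hht : ∀ p q : Ideal A, p.IsPrime → q.IsPrime → q < p → ht q < ht p) (i : ℕ) :
    ∃ t : ℕ → A, ∀ p : Ideal A, p.IsPrime → ¬ ZZ (JJ (fun j => y j + t j • a) i) a p →
      ∃ k, k + i ≤ m * (1 + ht p) ∧ GG (JJ (fun j => y j + t j • a) i) p k := by
  induction i with
  | zero =>
    refine ⟨0, fun p hp _ => ⟨m, ?_, ?_⟩⟩
    · rw [add_zero]; exact Nat.le_mul_of_pos_right m (by omega)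
    · obtain ⟨s, hs, hs'⟩ := gen
      refine ⟨1, (Ideal.ne_top_iff_one p).1 hp.ne_top, s, hs, fun x => ?_⟩
      rw [hs']
      exact mem_sup_right trivial
  | succ i ih =>
    obtain ⟨t, inv⟩ := ih
    obtain ⟨τ, hτ⟩ := step (JJ (fun j => y j + t j • a) i) a (y i) m i hm gen ht hht inv
    refine ⟨Function.update t i τ, ?_⟩
    have h1 : JJ (A := A) (fun j => y j + t j • a) i =
        JJ (fun j => y j + (Function.update t i τ) j • a) i :=
      JJ_congr _ _ i fun j hj => by rw [Function.update_of_ne hj.ne]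
    refine hτ (JJ (fun j => y j + (Function.update t i τ) j • a) (i + 1)) ?_ ?_
    · rw [h1]; exact JJ_mono _ i
    · have := JJ_mem (A := A) (fun j => y j + (Function.update t i τ) j • a) (i + 1) i
        (Nat.lt_succ_self i) 1
      simpa using this

theorem bass0 [IsNoetherianRing A] [Module.Finite A R] (d : ℕ)
    (hd : ∀ p : Ideal A, p.IsPrime → p.height ≤ d) :
    ∃ n : ℕ, 1 ≤ n ∧ ∀ (y : Fin n → R) (a : R),
      (∃ (b : Fin n → R) (c : R), ∑ i, y i * b i + a * c = 1) →
        ∃ t v : Fin n → R, ∑ i, (y i + a * t i) * v i = 1 := by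
  obtain ⟨s, hs⟩ := Module.finite_def.1 (inferInstance : Module.Finite A R)
  let m := s.card + 1
  let n := m * (1 + d)
  have hn : 1 ≤ n := Nat.mul_pos (by omega) (by omega)
  refine ⟨n, hn, ?_⟩
  rintro y a ⟨b, c, hbc⟩
  let Y : ℕ → R := fun j => if h : j < n then y ⟨j, h⟩ else 0
  have hY : ∀ j : Fin n, Y j = y j := fun j => by simp [Y]
  let ht : Ideal A → ℕ := fun p => p.height.toNat
  have hfin : ∀ p : Ideal A, p.IsPrime → (ht p : ℕ∞) = p.height := fun p hp =>
    ENat.natCast_toNat (ne_top_of_le_ne_top (ENat.natCast_ne_top d) (hd p hp))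
  have hht : ∀ p q : Ideal A, p.IsPrime → q.IsPrime → q < p → ht q < ht p := by
    intro p q hp hq hlt
    have h1 : q.height < p.height := by
      have := hq
      have : q.FiniteHeight := q.finiteHeight_iff.mpr
        (Or.inr (ne_top_of_le_ne_top (ENat.natCast_ne_top d) (hd q hq)))
      exact Ideal.height_strict_mono_of_isPrime hlt
    rw [← hfin p hp, ← hfin q hq] at h1
    exact_mod_cast h1
  obtain ⟨t, inv⟩ := chain Y a m (by omega) ⟨s, by omega, hs⟩ ht hht n
  have hall : ∀ p : Ideal A, p.IsPrime → ZZ (JJ (fun j => Y j + t j • a) n) a p := by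
    intro p hp
    by_contra hz
    obtain ⟨k, hk, hG⟩ := inv p hp hz
    have h1 : ht p ≤ d := by
      have := hd p hp
      rw [← hfin p hp] at this
      exact_mod_cast this
    have h2 : m * (1 + ht p) ≤ n := Nat.mul_le_mul_left _ (by omega)
    have h3 : k = 0 := by omega
    subst h3
    exact hz (GG_zero hG)
  have htop : JJ (A := A) (fun j => Y j + t j • a) n = ⊤ := by
    refine top_of_ZZ _ (JJ_RI _ _) a hall fun x => ?_
    refine ⟨∑ i : Fin n, (Y i + t i • a) * (b i * x), sum_mem fun i _ => ?_,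
      (c - ∑ i : Fin n, t i • b i) * x, ?_⟩
    · exact JJ_mem (fun j => Y j + t j • a) n i i.2 (b i * x)
    · have h1 : ∀ i : Fin n, (Y i + t i • a) * (b i * x) = y i * b i * x +
          a * (t i • b i) * x := fun i => by
        rw [hY]
        simp only [add_mul, mul_assoc, smul_mul_assoc, mul_smul_comm]
      calc x = (∑ i, y i * b i + a * c) * x := by rw [hbc, one_mul]
        _ = _ := by
          rw [Finset.sum_congr rfl fun i _ => h1 i, Finset.sum_add_distrib, ← Finset.sum_mul,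
            ← Finset.sum_mul, ← Finset.mul_sum]
          noncomm_ring
  have h1 : (1 : R) ∈ JJ (A := A) (fun j => Y j + t j • a) n := by rw [htop]; trivial
  obtain ⟨v, hv⟩ := h1
  refine ⟨fun i => algebraMap A R (t i), fun i => v i, ?_⟩
  rw [hv, Finset.sum_range]
  refine Finset.sum_congr rfl fun i _ => ?_
  simp only
  rw [hY, Algebra.smul_def, Algebra.commutes]

end

end Vale.Agent.P246.H411.B
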