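import Vale.Agent.P246.R2.H429.Defs
import Vale.Agent.P246.R2.H411.Bass0

/-! # P246: ROW B -/

namespace Vale.Agent.P246.H411.B

theorem bass : Vale.Agent.P246.H429.SpecBass := fun _ _ _ _ _ _ _ d hd => bass0 d hd

end Vale.Agent.P246.H411.B
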