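import Mathlib

/-! # P246: the group ring of a finitely generated virtually abelian group is finite over a
noetherian central subring of finite dimension (ROW V, Mathlib only part) -/

namespace Vale.Agent.P246.H411

open MonoidAlgebra Polynomial

section

variable {G H : Type} [Group G] [CommGroup H] (i : H →* G) (c : G →* MulAut H)

/-- the action of `g` on the group ring of `H` -/
noncomputable def cB (g : G) : MonoidAlgebra ℤ H →+* MonoidAlgebra ℤ H :=
  MonoidAlgebra.mapDomainRingHom ℤ ((c g : H ≃* H) : H →* H)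

/-- the inclusion of group rings -/
noncomputable def io : MonoidAlgebra ℤ H →+* MonoidAlgebra ℤ G :=
  MonoidAlgebra.mapDomainRingHom ℤ i

theorem cB_single (g : G) (h : H) (n : ℤ) : cB c g (single h n) = single (c g h) n := by
  simp [cB]

theorem io_single (h : H) (n : ℤ) : io i (single h n) = single (i h) n := by
  simp [io]

theorem cB_comm (hc : ∀ g h, i (c g h) = g * i h * g⁻¹) (g : G) (b : MonoidAlgebra ℤ H) :
    io i (cB c g b) * single g 1 = single g 1 * io i b := by
  induction b using MonoidAlgebra.induction_linear with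
  | zero => simp
  | add x y hx hy => rw [map_add, map_add, add_mul, hx, hy, map_add, mul_add]
  | single h n =>
    rw [cB_single, io_single, io_single, single_mul_single, single_mul_single, hc]
    simp

/-- the fixed elements -/
noncomputable def AA : Subring (MonoidAlgebra ℤ H) :=
  ⨅ g : G, RingHom.eqLocus (cB c g) (RingHom.id _)

theorem mem_AA (b : MonoidAlgebra ℤ H) : b ∈ AA c ↔ ∀ g, cB c g b = b := by
  simp [AA, Subring.mem_iInf, RingHom.mem_eqLocus]

theorem io_central (hc : ∀ g h, i (c g h) = g * i h * g⁻¹) (b : MonoidAlgebra ℤ H)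
    (hb : b ∈ AA c) (x : MonoidAlgebra ℤ G) : io i b * x = x * io i b := by
  induction x using MonoidAlgebra.induction_linear with
  | zero => simp
  | add x y hx hy => rw [mul_add, add_mul, hx, hy]
  | single g n =>
    have h1 := cB_comm i c hc g b
    rw [(mem_AA c b).1 hb g] at h1
    have h2 : (single g n : MonoidAlgebra ℤ G) = n • single g 1 := by simp
    rw [h2, mul_smul_comm, smul_mul_assoc, h1]

theorem orbit_finite (hi : Function.Injective i) (hc : ∀ g h, i (c g h) = g * i h * g⁻¹)
    [i.range.FiniteIndex] (h : H) : (Set.range (fun g => c g h)).Finite := by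
  have ht : ∀ a h : H, c (i a) h = h := by
    intro a h
    apply hi
    rw [hc, ← map_inv, ← map_mul, ← map_mul]
    congr 1
    rw [mul_comm a h]; simp
  refine (Set.finite_range (fun q : G ⧸ i.range => c q.out h)).subset ?_
  rintro _ ⟨g, rfl⟩
  obtain ⟨n, hn⟩ := QuotientGroup.mk_out_eq_mul i.range g
  obtain ⟨a, ha⟩ := n.2
  refine ⟨(g : G ⧸ i.range), ?_⟩
  simp only
  rw [hn, ← ha, map_mul, MulAut.mul_apply, ht]

open Classical in
/-- the orbit polynomial -/
noncomputable def PP (h : H) (hf : (Set.range (fun g => c g h)).Finite) :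
    (MonoidAlgebra ℤ H)[X] :=
  ∏ h' ∈ hf.toFinset, (X - Polynomial.C (MonoidAlgebra.single h' 1 : MonoidAlgebra ℤ H))

theorem PP_monic (h : H) (hf) : (PP c h hf).Monic :=
  Polynomial.monic_prod_of_monic _ _ (fun _ _ => Polynomial.monic_X_sub_C _)

theorem PP_root (h : H) (hf) :
    (PP c h hf).eval (MonoidAlgebra.single h 1 : MonoidAlgebra ℤ H) = 0 := by
  unfold PP
  rw [Polynomial.eval_prod]
  refine Finset.prod_eq_zero (i := h) ?_ ?_
  · rw [Set.Finite.mem_toFinset]
    exact ⟨1, by simp⟩
  · simp

theorem PP_map (h : H) (hf) (g : G) : (PP c h hf).map (cB c g) = PP c h hf := by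
  unfold PP
  rw [Polynomial.map_prod]
  refine Finset.prod_nbij (fun h' => c g h') ?_ ?_ ?_ ?_
  · intro a ha
    rw [Set.Finite.mem_toFinset] at ha ⊢
    obtain ⟨k, rfl⟩ := ha
    exact ⟨g * k, by simp [MulAut.mul_apply]⟩
  · intro a _ b _ hab
    exact (c g).injective hab
  · intro a ha
    have ha' : a ∈ hf.toFinset := ha
    rw [Set.Finite.mem_toFinset] at ha'
    obtain ⟨k, rfl⟩ := ha'
    refine ⟨c (g⁻¹ * k) h, ?_, ?_⟩
    · show c (g⁻¹ * k) h ∈ hf.toFinset
      rw [Set.Finite.mem_toFinset]
      exact ⟨_, rfl⟩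
    · simp only
      rw [← MulAut.mul_apply, ← map_mul]
      simp
  · intro a _
    rw [Polynomial.map_sub, Polynomial.map_X, Polynomial.map_C, cB_single]

theorem isIntegral_single (h : H) (hf : (Set.range (fun g => c g h)).Finite) :
    IsIntegral (AA c) (MonoidAlgebra.single h 1 : MonoidAlgebra ℤ H) := by
  have hco : ((PP c h hf).coeffs : Set (MonoidAlgebra ℤ H)) ⊆ AA c := by
    intro x hx
    have hx' : x ∈ (PP c h hf).coeffs := hx
    rw [Polynomial.mem_coeffs_iff] at hx'
    obtain ⟨n, _, rfl⟩ := hx'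
    show _ ∈ AA c
    rw [mem_AA]
    intro g
    have := congrArg (fun p => Polynomial.coeff p n) (PP_map c h hf g)
    simpa [Polynomial.coeff_map] using this
  refine ⟨(PP c h hf).toSubring (AA c) hco, ?_, ?_⟩
  · rw [Polynomial.monic_toSubring]; exact PP_monic c h hf
  · have h1 := PP_root c h hf
    rw [← Polynomial.eval_map]
    have h2 : ((PP c h hf).toSubring (AA c) hco).map (algebraMap (AA c) (MonoidAlgebra ℤ H)) =
        PP c h hf := by
      refine Polynomial.ext fun n => ?_
      rw [Polynomial.coeff_map]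
      exact Polynomial.coeff_toSubring _ _ _
    rw [h2]; exact h1

theorem integral_B (hi : Function.Injective i) (hc : ∀ g h, i (c g h) = g * i h * g⁻¹)
    [i.range.FiniteIndex] : Algebra.IsIntegral (AA c) (MonoidAlgebra ℤ H) := by
  refine ⟨fun b => ?_⟩
  induction b using MonoidAlgebra.induction_linear with
  | zero => exact isIntegral_zero
  | add x y hx hy => exact hx.add hy
  | single h n =>
    have h2 : (MonoidAlgebra.single h n : MonoidAlgebra ℤ H) = n • MonoidAlgebra.single h 1 := by
      simp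
    rw [h2]
    have h3 := isIntegral_single c h (orbit_finite i c hi hc h)
    exact IsIntegral.smul (R := ℤ) n h3

theorem finite_B (hi : Function.Injective i) (hc : ∀ g h, i (c g h) = g * i h * g⁻¹)
    [i.range.FiniteIndex] [Group.FG H] : Module.Finite (AA c) (MonoidAlgebra ℤ H) := by
  have := integral_B i c hi hc
  have : Monoid.FG H := (Group.fg_iff_monoid_fg).1 inferInstance
  have : Algebra.FiniteType ℤ (MonoidAlgebra ℤ H) := inferInstance
  have : Algebra.FiniteType (AA c) (MonoidAlgebra ℤ H) :=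
    Algebra.FiniteType.of_restrictScalars_finiteType ℤ (AA c) (MonoidAlgebra ℤ H)
  exact Algebra.IsIntegral.finite

theorem finiteType_AA (hi : Function.Injective i) (hc : ∀ g h, i (c g h) = g * i h * g⁻¹)
    [i.range.FiniteIndex] [Group.FG H] : Algebra.FiniteType ℤ (AA c) := by
  have := finite_B i c hi hc
  have : Monoid.FG H := (Group.fg_iff_monoid_fg).1 inferInstance
  have : Algebra.FiniteType ℤ (MonoidAlgebra ℤ H) := inferInstance
  exact ⟨fg_of_fg_of_fg ℤ (AA c) (MonoidAlgebra ℤ H) this.out
    (Module.finite_def.1 inferInstance) Subtype.val_injective⟩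

end

theorem dim_of_finiteType (A : Type) [CommRing A] [Algebra.FiniteType ℤ A] :
    ∃ d : ℕ, ∀ p : Ideal A, p.IsPrime → p.height ≤ d := by
  obtain ⟨n, f, hf⟩ := Algebra.FiniteType.iff_quotient_mvPolynomial''.1
    (inferInstance : Algebra.FiniteType ℤ A)
  refine ⟨1 + n, fun p hp => ?_⟩
  have h1 : ringKrullDim A ≤ ringKrullDim (MvPolynomial (Fin n) ℤ) :=
    ringKrullDim_le_of_surjective f.toRingHom hf
  have h2 : ringKrullDim (MvPolynomial (Fin n) ℤ) = ringKrullDim ℤ + Nat.card (Fin n) :=
    MvPolynomial.ringKrullDim_of_isNoetherianRing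
  have h3 : ringKrullDim ℤ ≤ 1 :=
    (IsPrincipalIdealRing.ringKrullDim_eq_one ℤ Int.not_isField).le
  have h4 : (p.height : WithBot ℕ∞) ≤ ringKrullDim A := Ideal.height_le_ringKrullDim_of_isPrime
  have h5 : (p.height : WithBot ℕ∞) ≤ ((1 + n : ℕ) : WithBot ℕ∞) := by
    refine h4.trans (h1.trans ?_)
    rw [h2]
    push_cast
    simp only [Nat.card_fin]
    gcongr
  exact_mod_cast h5

section

variable {G H : Type} [Group G] [CommGroup H] (i : H →* G) (c : G →* MulAut H)

theorem gen_G (g : G) (n : ℤ) : ∃ (h : H) (q : G ⧸ i.range),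
    (MonoidAlgebra.single g n : MonoidAlgebra ℤ G) =
      io i (MonoidAlgebra.single h n) * MonoidAlgebra.single (q.out)⁻¹ 1 := by
  obtain ⟨m, hm⟩ := QuotientGroup.mk_out_eq_mul i.range g⁻¹
  obtain ⟨a, ha⟩ := m.2
  refine ⟨a, ((g⁻¹ : G) : G ⧸ i.range), ?_⟩
  rw [io_single, MonoidAlgebra.single_mul_single, hm, ← ha]
  simp

theorem main (hi : Function.Injective i) (hc : ∀ g h, i (c g h) = g * i h * g⁻¹)
    [i.range.FiniteIndex] [Group.FG H] :
    ∃ (A : Type) (_ : CommRing A) (_ : IsNoetherianRing A) (_ : Algebra A (MonoidAlgebra ℤ G)),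
    Module.Finite A (MonoidAlgebra ℤ G) ∧ ∃ d : ℕ, ∀ p : Ideal A, p.IsPrime → p.height ≤ d := by
  have h1 := finiteType_AA i c hi hc
  have h2 := finite_B i c hi hc
  letI : Algebra (AA c) (MonoidAlgebra ℤ G) := RingHom.toAlgebra' ((io i).comp (AA c).subtype)
    (fun a x => io_central i c hc a a.2 x)
  refine ⟨AA c, inferInstance, Algebra.FiniteType.isNoetherianRing ℤ _, this, ?_,
    dim_of_finiteType _⟩
  letI : Module (MonoidAlgebra ℤ H) (MonoidAlgebra ℤ G) :=
    Module.compHom (MonoidAlgebra ℤ G) (io i)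
  have : IsScalarTower (AA c) (MonoidAlgebra ℤ H) (MonoidAlgebra ℤ G) := by
    refine ⟨fun a b x => ?_⟩
    show io i ((a : MonoidAlgebra ℤ H) * b) * x = io i (a : MonoidAlgebra ℤ H) * (io i b * x)
    rw [map_mul, mul_assoc]
  have : Module.Finite (MonoidAlgebra ℤ H) (MonoidAlgebra ℤ G) := by
    refine ⟨Submodule.fg_def.2 ⟨Set.range (fun q : G ⧸ i.range =>
      (MonoidAlgebra.single (q.out)⁻¹ 1 : MonoidAlgebra ℤ G)), Set.finite_range _, ?_⟩⟩
    rw [eq_top_iff]
    intro x _
    induction x using MonoidAlgebra.induction_linear with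
    | zero => exact zero_mem _
    | add x y hx hy => exact add_mem (hx trivial) (hy trivial)
    | single g n =>
      obtain ⟨h, q, hq⟩ := gen_G i g n
      rw [hq]
      exact Submodule.smul_mem _ _ (Submodule.subset_span ⟨q, rfl⟩)
  exact Module.Finite.trans (MonoidAlgebra ℤ H) (MonoidAlgebra ℤ G)

end

theorem va0 (G : Type) [Group G] (hG : Group.FG G)
    (h : ∃ N : Subgroup G, N.FiniteIndex ∧ ∀ a ∈ N, ∀ b ∈ N, a * b = b * a) :
    ∃ (A : Type) (_ : CommRing A) (_ : IsNoetherianRing A) (_ : Algebra A (MonoidAlgebra ℤ G)),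
    Module.Finite A (MonoidAlgebra ℤ G) ∧ ∃ d : ℕ, ∀ p : Ideal A, p.IsPrime → p.height ≤ d := by
  obtain ⟨N, hN, hab⟩ := h
  have := hN
  have := hG
  have : N.normalCore.FiniteIndex := inferInstance
  have : Group.FG N.normalCore := inferInstance
  letI : CommGroup N.normalCore :=
    { (inferInstance : Group N.normalCore) with
      mul_comm := fun a b => Subtype.ext
        (hab a (N.normalCore_le a.2) b (N.normalCore_le b.2)) }
  have hr : (N.normalCore.subtype).range = N.normalCore := Subgroup.range_subtype _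
  have : (N.normalCore.subtype).range.FiniteIndex := by rw [hr]; infer_instance
  exact main (H := N.normalCore) N.normalCore.subtype
    (MulAut.conjNormal (H := N.normalCore)) Subtype.val_injective
    (fun g h => by simp [MulAut.conjNormal_apply])

end Vale.Agent.P246.H411
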