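import Vale.Agent.P246.R2.H429.Defs
import Vale.Agent.P246.R2.H411.VA0

/-! # P246: ROW V -/

namespace Vale.Agent.P246.H411

theorem va : Vale.Agent.P246.H429.SpecVA := fun G _ hG h => va0 G hG h

end Vale.Agent.P246.H411
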